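import Vale.Agent.P018.R2.H26.PairsFin

open Polynomial Filter Asymptotics

open Vale.Agent.P018 Vale.Agent.P018.R2.H26 in
/-- Power-free values of irreducible polynomials: for each pair `(D, k)` of the list `maxDeg` the
predicted asymptotic at the exponent `k`, with a power-saving error term, for every irreducible
polynomial of degree at most `D` with the local condition. -/
theorem Vale.Agent.Results.P018.NewPairs.result :
    ∀ e ∈ maxDeg, ∀ f : ℤ[X], Irreducible (f.map (Int.castRingHom ℚ)) → f.natDegree ≤ e.1 →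
      (∀ p : ℕ, p.Prime → rho f (p ^ e.2) < p ^ e.2) →
      Multipliable (fun p : Nat.Primes =>
        1 - (rho f ((p : ℕ) ^ e.2) : ℝ) / ((p : ℕ) : ℝ) ^ e.2) ∧
      0 < density f e.2 ∧
      (fun X : ℕ => (countPF f e.2 X : ℝ) - density f e.2 * X) =o[atTop] (fun X : ℕ => (X : ℝ)) ∧
      ∃ δ C : ℝ, 0 < δ ∧ ∀ X : ℕ, 1 ≤ X →
        |(countPF f e.2 X : ℝ) - density f e.2 * X| ≤ C * (X : ℝ) ^ (1 - δ) := by
  intro e he f hirr hd hloc
  obtain ⟨h1, h2, h3⟩ := main_maxDeg e he f hirr hd hloc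
  exact ⟨h1, h2, Vale.Agent.P018.H867R.isLittleO_of_pow h3, h3⟩
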