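import Vale.Agent.P018.R2.H26.Fin2

open Polynomial

open Vale.Agent.P018 Vale.Agent.P018.R2.H26 in
/-- Which primes can spoil the predicted density of `k`-free values.
(1) every `f ∈ ℤ[x]` without multiple factors over `ℚ` (so every irreducible `f`), of any degree
`d`, every `k ≥ 2`: all primes `p ≤ X ^ (1 + c)` are treated, with a power saving, where `c` is the
larger one of `1 / (21 d ^ 2)` and `min k d / (360 d)`;
(2) irreducible quintics and `k = 2`: all primes `p ≤ X ^ (101 / 100)`;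
(3) irreducible `f`, the pairs (degree, exponent) of the list `ranges` with their exponents
`s < t`: all primes except those between `X ^ s` and `X ^ t` are treated, with a power saving. -/
theorem Vale.Agent.Results.P018.PrimeRanges.result :
    (∀ (f : ℤ[X]) (k : ℕ), 2 ≤ k → Squarefree (f.map (Int.castRingHom ℚ)) →
      (∀ p : ℕ, p.Prime → rho f (p ^ k) < p ^ k) →
      Multipliable (fun p : Nat.Primes => 1 - (rho f ((p : ℕ) ^ k) : ℝ) / ((p : ℕ) : ℝ) ^ k) ∧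
      0 < density f k ∧
      ∃ δ C : ℝ, 0 < δ ∧ ∀ X : ℕ, 1 ≤ X →
        ∀ s : ℝ, 1 ≤ s → s ≤ 1 + max (1 / (21 * (f.natDegree : ℝ) ^ 2))
          ((min k f.natDegree : ℕ) / (360 * (f.natDegree : ℝ))) →
        |(countUpTo f k s X : ℝ) - density f k * X| ≤ C * (X : ℝ) ^ (1 - δ) ∧
        |(countPF f k X : ℝ) - density f k * X| ≤
          C * (X : ℝ) ^ (1 - δ) + countAbove f k s X) ∧
    (∀ f : ℤ[X], Irreducible (f.map (Int.castRingHom ℚ)) → f.natDegree = 5 →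
      (∀ p : ℕ, p.Prime → rho f (p ^ 2) < p ^ 2) →
      ∃ δ C : ℝ, 0 < δ ∧ ∀ X : ℕ, 1 ≤ X → ∀ s : ℝ, 1 ≤ s → s ≤ 101 / 100 →
        |(countUpTo f 2 s X : ℝ) - density f 2 * X| ≤ C * (X : ℝ) ^ (1 - δ) ∧
        |(countPF f 2 X : ℝ) - density f 2 * X| ≤
          C * (X : ℝ) ^ (1 - δ) + countAbove f 2 s X) ∧
    (∀ e ∈ ranges, ∀ f : ℤ[X], Irreducible (f.map (Int.castRingHom ℚ)) → f.natDegree = e.1 →
      (∀ p : ℕ, p.Prime → rho f (p ^ e.2.1) < p ^ e.2.1) →
      ∃ δ C : ℝ, 0 < δ ∧ ∀ X : ℕ, 1 ≤ X →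
        |(countOut f e.2.1 e.2.2.1 e.2.2.2 X : ℝ) - density f e.2.1 * X| ≤
          C * (X : ℝ) ^ (1 - δ) ∧
        |(countPF f e.2.1 X : ℝ) - density f e.2.1 * X| ≤
          C * (X : ℝ) ^ (1 - δ) + countMid f e.2.1 e.2.2.1 e.2.2.2 X) := by
  refine ⟨fun f k hk hsq hloc => ?_, fun f hirr hd hloc => ?_,
    fun e he f hirr hd hloc => main_ranges e he f hirr hd hloc⟩
  · obtain ⟨h1, h2⟩ := density_spec f hsq k hk hloc
    exact ⟨h1, h2, main_upU f hsq k hk hloc _ (midS_max f hsq k hk)⟩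
  · exact main_upU f hirr.squarefree 2 le_rfl hloc _ (midS_quint f hirr hd)
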