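import Vale.Agent.P018.R2.H803.More16

open Polynomial Filter Topology Asymptotics

open Vale.Agent.P018 Vale.Agent.P018.H867 Vale.Agent.P018.H867R Vale.Agent.P018.R2.H803 in
/-- Power-free values, in the range `InRangeX d k`: `d ≤ 4`, or `d < 2 k`, or `2 d + 12 ≤ 7 k`, or
`d / 4 + (log d) ^ 2 / 16 + (log d) / 2 + 1 / 2 ≤ k`. It contains the range `InRangeW` of the
earlier file `WiderRange` (there `d / 4 + (log d) ^ 2 / 8 + 4 ≤ k`), and for each `k ≥ 45` at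
least nine further degrees.
(1) irreducible polynomials, the predicted asymptotic, with a power-saving error term;
(2) arbitrary polynomials `f ≠ 0`, possibly reducible and with multiple factors: if `g ^ e` divides
`f` exactly, `g` irreducible, then `e < k` and `(deg g, ⌈k / e⌉)` has to be in the range;
(3) several such polynomials `f i`, each with its own exponent `k i`, simultaneously. -/
theorem Vale.Agent.Results.P018.SixteenthRange.result :
    (∀ d k : ℕ, InRangeW d k → InRangeX d k) ∧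
    (∀ d k : ℕ, 45 ≤ k → InRangeW d k → InRangeX (d + 9) k) ∧
    (∀ (f : ℤ[X]) (k : ℕ), 2 ≤ k → Irreducible (f.map (Int.castRingHom ℚ)) →
      (∀ p : ℕ, p.Prime → rho f (p ^ k) < p ^ k) →
      (f.natDegree ≤ 4 ∨ f.natDegree < 2 * k ∨ 2 * f.natDegree + 12 ≤ 7 * k ∨
        (f.natDegree : ℝ) / 4 + Real.log f.natDegree ^ 2 / 16 + Real.log f.natDegree / 2 + 1 / 2
          ≤ k) →
      Multipliable (fun p : Nat.Primes => 1 - (rho f ((p : ℕ) ^ k) : ℝ) / ((p : ℕ) : ℝ) ^ k) ∧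
      0 < density f k ∧
      (fun X : ℕ => (countPF f k X : ℝ) - density f k * X) =o[atTop] (fun X : ℕ => (X : ℝ)) ∧
      ∃ δ C : ℝ, 0 < δ ∧ ∀ X : ℕ, 1 ≤ X →
        |(countPF f k X : ℝ) - density f k * X| ≤ C * (X : ℝ) ^ (1 - δ)) ∧
    (∀ (f : ℤ[X]) (k : ℕ), 2 ≤ k → GoodX f k →
      (∀ p : ℕ, p.Prime → rho f (p ^ k) < p ^ k) →
      Multipliable (fun p : Nat.Primes => 1 - (rho f ((p : ℕ) ^ k) : ℝ) / ((p : ℕ) : ℝ) ^ k) ∧
      0 < density f k ∧
      ∃ δ C : ℝ, 0 < δ ∧ ∀ X : ℕ, 1 ≤ X →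
        |(countPF f k X : ℝ) - density f k * X| ≤ C * (X : ℝ) ^ (1 - δ)) ∧
    (∀ (m : ℕ) (f : Fin m → ℤ[X]) (k : Fin m → ℕ), 0 < m →
      (∀ i, 2 ≤ k i ∧ GoodX (f i) (k i)) →
      (∀ p : ℕ, p.Prime → rhoS f k p < p ^ topExp k) →
      Multipliable (fun p : Nat.Primes => 1 - (rhoS f k p : ℝ) / ((p : ℕ) : ℝ) ^ topExp k) ∧
      0 < densityS f k ∧
      ∃ δ C : ℝ, 0 < δ ∧ ∀ X : ℕ, 1 ≤ X →
        |(countS f k X : ℝ) - densityS f k * X| ≤ C * (X : ℝ) ^ (1 - δ)) := by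
  refine ⟨inRangeX_of_W, more, fun f k hk hirr hloc hr => ?_,
    fun f k hk hf hloc => main_oneR tailX f k hk hf hloc,
    fun m f k hm h hloc => main_familyR tailX hm f k (fun i => (h i).1) (fun i => (h i).2) hloc⟩
  obtain ⟨h1, h2, h3⟩ := main_oneR tailX f k hk (goodR_of_irr f k hk hirr hr) hloc
  exact ⟨h1, h2, isLittleO_of_pow h3, h3⟩
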